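import Vale.Agent.P205U.Main
import Vale.Agent.P205K.Fin

/-! # P205: every closed Riemannian surface with Euler characteristic zero (torus, Klein bottle) has a smooth isometric
immersion into `ℝ⁴`

`ℂ = ℝ²`.  Torus `ℂ/(ℤ ω₁ + ℤ ω₂)`; Klein bottle `ℂ/⟨t, s⟩`, `t z = z + 1`, `s z = -conj z + i` (so `s s z = z + 2i`,
`s t = t⁻¹ s`).  A smooth Riemannian metric on the quotient is a smooth field `g` of symmetric positive definite bilinear
forms on `ℂ` invariant under the group; the differential of `s` is `v ↦ -conj v`.  A smooth map of the quotient is an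
invariant smooth map `X` on `ℂ`. -/

open Complex ComplexConjugate
open scoped ContDiff

namespace Vale.Agent.Results.P205.AClosedEulerZero

theorem result :
    -- tori
    (∀ ω₁ ω₂ : ℂ, (conj ω₁ * ω₂).im ≠ 0 → ∀ g : ℂ → ℂ →L[ℝ] ℂ →L[ℝ] ℝ, ContDiff ℝ ∞ g →
      (∀ z v w, g z v w = g z w v) → (∀ z v, v ≠ 0 → 0 < g z v v) →
      (∀ z, g (z + ω₁) = g z) → (∀ z, g (z + ω₂) = g z) →
      ∃ X : ℂ → EuclideanSpace ℝ (Fin 4), ContDiff ℝ ∞ X ∧
        (∀ z, X (z + ω₁) = X z) ∧ (∀ z, X (z + ω₂) = X z) ∧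
        ∀ z v w, inner ℝ (fderiv ℝ X z v) (fderiv ℝ X z w) = g z v w) ∧
    -- Klein bottles
    (∀ g : ℂ → ℂ →L[ℝ] ℂ →L[ℝ] ℝ, ContDiff ℝ ∞ g →
      (∀ z v w, g z v w = g z w v) → (∀ z v, v ≠ 0 → 0 < g z v v) →
      (∀ z, g (z + 1) = g z) →
      (∀ z v w, g (- conj z + Complex.I) (- conj v) (- conj w) = g z v w) →
      ∃ X : ℂ → EuclideanSpace ℝ (Fin 4), ContDiff ℝ ∞ X ∧
        (∀ z, X (z + 1) = X z) ∧ (∀ z, X (- conj z + Complex.I) = X z) ∧
        ∀ z v w, inner ℝ (fderiv ℝ X z v) (fderiv ℝ X z w) = g z v w) := by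
  refine ⟨fun ω₁ ω₂ hω g hg hsym hpos h1 h2 =>
    P205T.U.torus_general ω₁ ω₂ hω g hg hsym hpos h1 h2, fun g hg hsym hpos h1 h2 => ?_⟩
  have hs : ∀ z : ℂ, P205T.K.sig 1 z = - conj z + Complex.I := by
    intro z
    unfold P205T.K.sig
    rw [Complex.ofReal_one, mul_one]
  obtain ⟨X, c1, c2, c3, c4⟩ := P205T.K.klein_general g hg hsym hpos h1
    (fun z v w => by rw [hs]; exact h2 z v w)
  exact ⟨X, c1, c2, fun z => by rw [← hs]; exact c3 z, c4⟩

end Vale.Agent.Results.P205.AClosedEulerZero
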