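import Vale.Agent.P205.Gen

/-! # P205: tori with a one parameter group of translational symmetries -/

open scoped ContDiff RealInnerProductSpace

namespace Vale.Agent.Results.P205.CircleSymmetricTori

/-- A smooth Riemannian metric on the torus `ℝ² / ℤ²`, written as a `ℤ²`-periodic smooth
Riemannian metric on `ℝ²`. -/
structure TorusMetric where
  /-- the scalar product `form x v w` of the tangent vectors `v`, `w` at the point `x` -/
  form : ℝ × ℝ → ((ℝ × ℝ) →L[ℝ] (ℝ × ℝ) →L[ℝ] ℝ)
  smooth : ContDiff ℝ ∞ form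
  symm : ∀ x v w, form x v w = form x w v
  pos : ∀ x v, v ≠ 0 → 0 < form x v v
  periodic : ∀ (x : ℝ × ℝ) (m n : ℤ), form (x + ((m : ℝ), (n : ℝ))) = form x

/-- Every smooth Riemannian metric on the torus that is invariant under the translations along
some fixed nonzero vector `e` has a smooth isometric immersion into `ℝ⁴`. -/
theorem result (g : TorusMetric) (e : ℝ × ℝ) (he : e ≠ 0)
    (hinv : ∀ (x : ℝ × ℝ) (t : ℝ), g.form (x + t • e) = g.form x) :
    ∃ F : ℝ × ℝ → EuclideanSpace ℝ (Fin 4), ContDiff ℝ ∞ F ∧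
      (∀ (x : ℝ × ℝ) (m n : ℤ), F (x + ((m : ℝ), (n : ℝ))) = F x) ∧
      ∀ x v w : ℝ × ℝ, ⟪fderiv ℝ F x v, fderiv ℝ F x w⟫ = g.form x v w :=
  Vale.Agent.P205.main g.form g.smooth g.symm g.pos g.periodic e he hinv

end Vale.Agent.Results.P205.CircleSymmetricTori
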