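import Vale.Agent.P205U.Main

/-! # P205: every smooth Riemannian torus has a smooth isometric immersion into `ℝ⁴`

`ℂ = ℝ²`, lattice `Λ = ℤ ω₁ + ℤ ω₂`.  A smooth Riemannian metric on the torus `ℂ/Λ` is a smooth Λ-periodic field `g` of
symmetric positive definite bilinear forms on `ℂ`; a smooth map of `ℂ/Λ` is a smooth Λ-periodic map `X` on `ℂ`. -/

open Complex ComplexConjugate
open scoped ContDiff

namespace Vale.Agent.Results.P205.Torus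

theorem result (ω₁ ω₂ : ℂ) (hω : (conj ω₁ * ω₂).im ≠ 0) (g : ℂ → ℂ →L[ℝ] ℂ →L[ℝ] ℝ)
    (hg : ContDiff ℝ ∞ g) (hsym : ∀ z v w, g z v w = g z w v) (hpos : ∀ z v, v ≠ 0 → 0 < g z v v)
    (h1 : ∀ z, g (z + ω₁) = g z) (h2 : ∀ z, g (z + ω₂) = g z) :
    ∃ X : ℂ → EuclideanSpace ℝ (Fin 4), ContDiff ℝ ∞ X ∧
      (∀ z, X (z + ω₁) = X z) ∧ (∀ z, X (z + ω₂) = X z) ∧
      ∀ z v w, inner ℝ (fderiv ℝ X z v) (fderiv ℝ X z w) = g z v w :=
  P205T.U.torus_general ω₁ ω₂ hω g hg hsym hpos h1 h2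

end Vale.Agent.Results.P205.Torus
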