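import Vale.Agent.P205T.Final

/-!
# P205: every conformally flat doubly periodic metric immerses smoothly and isometrically in R^4

Idea.  Look for `F = r ψ` with `r = √ε l a > 0` and `ψ` a flat torus in the unit 3-sphere.  Then
`F^* = dr² + r² ψ^*`, so one needs the metric `(l² |dz|² - dr²) / r²` to be flat and `ψ` to be
an isometric immersion of the resulting flat torus in the 3-sphere.  For small `ε` flatness is a
small elliptic perturbation problem for `a` near `1` (solved in a weighted Wiener algebra), and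
the flat tori with matching periods are found among Hopf tori over closed curves in the 2-sphere.
-/

namespace Vale.Agent.Results.P205.TorusImmersion

/-- For every lattice `ℤ ω₁ + ℤ ω₂` in `ℂ` and every smooth positive doubly periodic function
`l`, the Riemannian metric `l² |dz|²` on the torus `ℂ / (ℤ ω₁ + ℤ ω₂)` has a smooth isometric
immersion into Euclidean 4-space. -/
theorem result (ω₁ ω₂ : ℂ) (hω : ((starRingEnd ℂ) ω₁ * ω₂).im ≠ 0) (l : ℂ → ℝ)
    (hl : ContDiff ℝ ((⊤ : ℕ∞) : WithTop ℕ∞) l) (hpos : ∀ z, 0 < l z)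
    (h₁ : ∀ z, l (z + ω₁) = l z) (h₂ : ∀ z, l (z + ω₂) = l z) :
    ∃ F : ℂ → EuclideanSpace ℝ (Fin 4),
      ContDiff ℝ ((⊤ : ℕ∞) : WithTop ℕ∞) F ∧
      (∀ z, F (z + ω₁) = F z) ∧ (∀ z, F (z + ω₂) = F z) ∧
      ∀ z v w : ℂ, inner ℝ (fderiv ℝ F z v) (fderiv ℝ F z w) = (l z) ^ 2 * inner ℝ v w :=
  P205T.torus_immersion ω₁ ω₂ hω l hl hpos h₁ h₂

end Vale.Agent.Results.P205.TorusImmersion
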